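import Mathlib

namespace Vale.Agent.P126

open Finset

lemma exists_dom (M : ℕ) : ∃ (Φ : Type) (_ : Fintype Φ) (_ : Nonempty Φ) (dom : Φ → Φ → Prop),
    (∀ x y, dom x y ∨ dom y x) ∧ (∀ x, dom x x) ∧
      ∀ Z : Finset Φ, Z.card ≤ M → ∃ φ, ∀ ψ ∈ Z, ¬ dom ψ φ := by
  classical
  refine ⟨Fin (M * M + 1) × {S : Finset (Fin (M * M + 1)) // S.card ≤ M}, inferInstance,
    ⟨(0, ⟨∅, by simp⟩)⟩, fun ψ φ => ¬ (ψ.1 ∈ φ.2.1 ∧ φ.1 ∉ ψ.2.1), ?_, ?_, ?_⟩
  · intro x y; tauto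
  · intro x; tauto
  · intro Z hZ
    have h1 : (Z.biUnion fun ψ => ψ.2.1).card ≤ M * M := by
      refine card_biUnion_le.trans ?_
      refine (sum_le_card_nsmul _ _ M fun ψ _ => ψ.2.2).trans ?_
      simpa using Nat.mul_le_mul_right M hZ
    obtain ⟨l, -, hl⟩ := exists_mem_notMem_of_card_lt_card
      (s := Z.biUnion fun ψ => ψ.2.1) (t := univ) (by simp; omega)
    refine ⟨(l, ⟨Z.image Prod.fst, card_image_le.trans hZ⟩), fun ψ hψ => ?_⟩
    simp only [not_not]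
    exact ⟨mem_image_of_mem _ hψ, fun h => hl (mem_biUnion.2 ⟨ψ, hψ, h⟩)⟩

section

variable {Φ : Type} [Fintype Φ] [DecidableEq Φ] {K : ℕ} [NeZero K]

lemma card_zero_le (B : Finset (Φ → Fin K)) (Z e : Finset Φ) (hd : ∀ ψ ∈ e, ψ ∉ Z)
    (hB : ∀ ω ω' : Φ → Fin K, (∀ φ ∈ Z, ω φ = ω' φ) → ω ∈ B → ω' ∈ B) :
    B.card ≤ K ^ e.card * (B.filter fun ω => ∀ ψ ∈ e, ω ψ = 0).card := by
  refine card_le_mul_card_image_of_maps_to
    (f := fun (ω : Φ → Fin K) ψ => if ψ ∈ e then 0 else ω ψ) (fun ω hω => ?_) _ (fun a _ => ?_)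
  · refine mem_filter.2 ⟨hB ω _ (fun φ hφ => ?_) hω, fun ψ hψ => if_pos hψ⟩
    rw [if_neg fun h => hd φ h hφ]
  · have : K ^ e.card = (univ : Finset (e → Fin K)).card := by simp
    rw [this]
    refine card_le_card_of_injOn (fun x (ψ : e) => x ψ) (fun _ _ => mem_univ _) ?_
    intro x hx y hy hxy
    have hx := (mem_filter.1 (mem_coe.1 hx)).2
    have hy := (mem_filter.1 (mem_coe.1 hy)).2
    funext ψ
    by_cases h : ψ ∈ e
    · exact congrFun hxy ⟨ψ, h⟩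
    · have := congrFun (hx.trans hy.symm) ψ
      simpa [h] using this

lemma sep_aux {dom : Φ → Φ → Prop} (refl : ∀ x, dom x x) {M R : ℕ}
    (hM : ∀ Z : Finset Φ, Z.card ≤ M → ∃ φ, ∀ ψ ∈ Z, ¬ dom ψ φ) (D : Finset (Φ → Fin K))
    (hD : ∀ φ, ∃ w : Finset Φ, w.card ≤ R ∧ (∀ ψ ∈ w, dom ψ φ) ∧
      ∀ ω ∈ D, ¬ (ω φ = 0 ∧ ∀ ψ ∈ w, ω ψ = 0)) (s : ℕ) (hs : s * (R + 1) ≤ M) :
    ∃ (Z : Finset Φ) (B : Finset (Φ → Fin K)), Z.card ≤ s * (R + 1) ∧ D ⊆ B ∧
      (∀ ω ω' : Φ → Fin K, (∀ φ ∈ Z, ω φ = ω' φ) → ω ∈ B → ω' ∈ B) ∧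
      (B.card : ℝ) ≤ (1 - 1 / (K : ℝ) ^ (R + 1)) ^ s * Fintype.card (Φ → Fin K) := by
  induction s with
  | zero => exact ⟨∅, univ, by simp, subset_univ _, fun _ _ _ _ => mem_univ _, by simp⟩
  | succ s ih =>
    have hs' : s * (R + 1) ≤ M := le_trans (Nat.mul_le_mul_right _ (Nat.le_succ s)) hs
    obtain ⟨Z, B, h1, h2, h3, h4⟩ := ih hs'
    obtain ⟨φ, hφ⟩ := hM Z (h1.trans hs')
    obtain ⟨w, w1, w2, w3⟩ := hD φ
    have he : (insert φ w).card ≤ R + 1 := (card_insert_le _ _).trans (by omega)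
    have hd : ∀ ψ ∈ insert φ w, ψ ∉ Z := by
      intro ψ hψ hZ
      rcases mem_insert.1 hψ with rfl | hψ
      · exact hφ _ hZ (refl _)
      · exact hφ _ hZ (w2 ψ hψ)
    refine ⟨Z ∪ insert φ w, B.filter fun ω => ¬ ∀ ψ ∈ insert φ w, ω ψ = 0, ?_, ?_, ?_, ?_⟩
    · have := card_union_le Z (insert φ w)
      rw [Nat.succ_mul]
      omega
    · intro ω hω
      refine mem_filter.2 ⟨h2 hω, fun h => w3 ω hω ⟨h _ (mem_insert_self _ _),
        fun ψ hψ => h _ (mem_insert_of_mem hψ)⟩⟩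
    · intro ω ω' h hω
      obtain ⟨a1, a2⟩ := mem_filter.1 hω
      refine mem_filter.2 ⟨h3 ω ω' (fun φ hφ => h φ (mem_union_left _ hφ)) a1, fun h' => a2 ?_⟩
      intro ψ hψ
      rw [h ψ (mem_union_right _ hψ), h' ψ hψ]
    · have hK : 1 ≤ K := Nat.one_le_iff_ne_zero.2 (NeZero.ne K)
      have c1 := (card_zero_le B Z _ hd h3).trans
        (Nat.mul_le_mul_right _ (Nat.pow_le_pow_right hK he))
      have c2 := card_filter_add_card_filter_not (s := B) (fun ω => ∀ ψ ∈ insert φ w, ω ψ = 0)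
      have hK' : (1 : ℝ) ≤ (K : ℝ) ^ (R + 1) := one_le_pow₀ (by exact_mod_cast hK)
      have c1' : (B.card : ℝ) ≤ (K : ℝ) ^ (R + 1) *
          ((B.filter fun ω => ∀ ψ ∈ insert φ w, ω ψ = 0).card : ℝ) := by exact_mod_cast c1
      have c2' : ((B.filter fun ω => ∀ ψ ∈ insert φ w, ω ψ = 0).card : ℝ) +
          ((B.filter fun ω => ¬ ∀ ψ ∈ insert φ w, ω ψ = 0).card : ℝ) = B.card := by
        exact_mod_cast c2
      have c3 : (B.card : ℝ) / (K : ℝ) ^ (R + 1) ≤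
          ((B.filter fun ω => ∀ ψ ∈ insert φ w, ω ψ = 0).card : ℝ) := by
        rw [div_le_iff₀ (by positivity)]; linarith
      have c4 : 0 ≤ 1 - 1 / (K : ℝ) ^ (R + 1) := by
        rw [sub_nonneg, div_le_one (by positivity)]; exact hK'
      calc _ ≤ (1 - 1 / (K : ℝ) ^ (R + 1)) * B.card := by
            rw [sub_mul, one_mul, one_div_mul_eq_div]; linarith
        _ ≤ (1 - 1 / (K : ℝ) ^ (R + 1)) * ((1 - 1 / (K : ℝ) ^ (R + 1)) ^ s *
            Fintype.card (Φ → Fin K)) := mul_le_mul_of_nonneg_left h4 c4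
        _ = _ := by ring

lemma card_U_le (ψ : Φ) :
    (univ.filter fun ω : Φ → Fin K => ω ψ = 0).card * K ≤ Fintype.card (Φ → Fin K) := by
  have : (univ.filter fun ω : Φ → Fin K => ω ψ = 0).card * K =
      ((univ.filter fun ω : Φ → Fin K => ω ψ = 0) ×ˢ (univ : Finset (Fin K))).card := by simp
  rw [this, ← card_univ]
  refine card_le_card_of_injOn (fun p => Function.update p.1 ψ p.2) (fun _ _ => mem_univ _) ?_
  intro x hx y hy hxy
  have hx := (mem_filter.1 (mem_product.1 (mem_coe.1 hx)).1).2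
  have hy := (mem_filter.1 (mem_product.1 (mem_coe.1 hy)).1).2
  refine Prod.ext ?_ ?_
  · funext φ
    by_cases h : φ = ψ
    · rw [h, hx, hy]
    · have := congrFun hxy φ
      simpa [h] using this
  · have := congrFun hxy ψ
    simpa using this

end

lemma card_near {Ω Q : Type} [Fintype Ω] [DecidableEq Ω] [Fintype Q] [DecidableEq Q] [Nonempty Q]
    (T₀ : Ω → Q) (h : ℕ) (S : Finset (Ω → Q))
    (hS : ∀ T ∈ S, (univ.filter fun ω => T ω ≠ T₀ ω).card ≤ h) :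
    S.card ≤ 2 ^ Fintype.card Ω * Fintype.card Q ^ h := by
  have hQ : 1 ≤ Fintype.card Q := Fintype.card_pos
  have hsub : S ⊆ (univ.filter fun D : Finset Ω => D.card ≤ h).biUnion
      fun D => Fintype.piFinset fun ω => if ω ∈ D then univ else {T₀ ω} := by
    intro T hT
    refine mem_biUnion.2 ⟨univ.filter fun ω => T ω ≠ T₀ ω, mem_filter.2 ⟨mem_univ _, hS T hT⟩, ?_⟩
    refine Fintype.mem_piFinset.2 fun ω => ?_
    by_cases h : T ω = T₀ ω <;> simp [h]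
  refine (card_le_card hsub).trans (card_biUnion_le.trans ?_)
  refine (sum_le_card_nsmul _ _ (Fintype.card Q ^ h) fun D hD => ?_).trans ?_
  · rw [Fintype.card_piFinset]
    have e : ∀ ω, (if ω ∈ D then (univ : Finset Q) else {T₀ ω}).card =
        if ω ∈ D then Fintype.card Q else 1 := by
      intro ω; split_ifs <;> simp
    simp only [e]
    rw [prod_ite_mem, univ_inter, prod_const]
    exact Nat.pow_le_pow_right hQ (mem_filter.1 hD).2
  · rw [smul_eq_mul]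
    refine Nat.mul_le_mul_right _ ((card_filter_le _ _).trans ?_)
    simp

lemma card_cls {Ω Q α : Type} [Fintype Ω] [DecidableEq Ω] [Fintype Q] [DecidableEq Q] [Nonempty Q]
    (h : ℕ) (S : Finset α) (cls : (Ω → Q) → α) (hS : ∀ T, cls T ∈ S)
    (hc : ∀ T T', cls T = cls T' → (univ.filter fun ω => T ω ≠ T' ω).card ≤ h) :
    Fintype.card Q ^ Fintype.card Ω ≤ 2 ^ Fintype.card Ω * Fintype.card Q ^ h * S.card := by
  classical
  have : Fintype.card Q ^ Fintype.card Ω = (univ : Finset (Ω → Q)).card := by simp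
  rw [this]
  refine card_le_mul_card_image_of_maps_to (f := cls) (fun T _ => hS T) _ fun a _ => ?_
  rcases (univ.filter fun T => cls T = a).eq_empty_or_nonempty with h0 | ⟨T₀, hT₀⟩
  · rw [h0]; simp
  · refine card_near T₀ h _ fun T hT => hc T T₀ ?_
    rw [(mem_filter.1 hT).2, (mem_filter.1 hT₀).2]

end Vale.Agent.P126
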