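import Vale.Agent.P126.Comp
import Vale.Agent.P126.Sep

namespace Vale.Agent.P126

open Finset

section

variable {Φ Ω Q : Type} [Fintype Φ] [Fintype Ω] [Fintype Q] [DecidableEq Ω]
variable {dom : Φ → Φ → Prop} {U : Φ → Ω → Prop}

instance finDt (q₀ : Q) : Finite (Dt U q₀) := by unfold Dt; infer_instance

instance finTy (q₀ : Q) (k N : ℕ) : Finite (Ty U q₀ k N) := by unfold Ty; infer_instance

omit [DecidableEq Ω] in
lemma card_Dt (q₀ : Q) (L : ℕ) (hL : ∀ ψ, Nat.card {ω // U ψ ω} ≤ L) :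
    Nat.card (Dt U q₀) ≤ Fintype.card Φ * Fintype.card Q ^ L := by
  classical
  have hQ : 1 ≤ Fintype.card Q := Fintype.card_pos_iff.2 ⟨q₀⟩
  have h1 : Nat.card (Dt U q₀) ≤ Nat.card (Σ ψ : Φ, ({ω // U ψ ω} → Q)) := by
    refine Nat.card_le_card_of_injective (fun d => ⟨d.1.1, fun ω => d.1.2 ω⟩) ?_
    rintro ⟨⟨ψ, V⟩, hV⟩ ⟨⟨ψ', V'⟩, hV'⟩ h
    simp only [Sigma.mk.injEq] at h
    obtain ⟨rfl, h⟩ := h
    have h := eq_of_heq h
    refine Subtype.ext (Prod.ext rfl ?_)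
    funext ω
    by_cases hω : U ψ ω
    · exact congrFun h ⟨ω, hω⟩
    · exact (hV ω hω).trans (hV' ω hω).symm
  refine h1.trans ?_
  rw [Nat.card_sigma]
  refine (sum_le_card_nsmul _ _ (Fintype.card Q ^ L) fun ψ _ => ?_).trans (by simp)
  rw [Nat.card_fun, Nat.card_eq_fintype_card]
  exact Nat.pow_le_pow_right hQ (hL ψ)

omit [DecidableEq Ω] in
lemma card_Ty (q₀ : Q) (k N L : ℕ) (hL : ∀ ψ, Nat.card {ω // U ψ ω} ≤ L) :
    Nat.card (Ty U q₀ k N) ≤ (Fintype.card Φ * Fintype.card Q ^ L) ^ k *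
      (N + 1) ^ Fintype.card (Φ × Finset Φ × Fin k) := by
  classical
  unfold Ty
  rw [Nat.card_prod, Nat.card_fun, Nat.card_fun]
  simp only [Nat.card_eq_fintype_card, Fintype.card_fin]
  exact Nat.mul_le_mul_right _ (Nat.pow_le_pow_left (card_Dt q₀ L hL) _)

open Classical in
/-- the matrix entry -/
noncomputable def ent (dom : Φ → Φ → Prop) (U : Φ → Ω → Prop) (A : ℕ) (T : Ω → Q)
    (c : Φ × (Ω → Q)) : ℝ :=
  (∑ j ∈ range A, if mt dom U (2 ^ j - 1) T c then (1 : ℝ) else 0) / A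

lemma sum_ent (A : ℕ) (T : Ω → Q) (μ : Φ × (Ω → Q) → ℝ) :
    ∑ c, μ c * ent dom U A T c = (∑ j ∈ range A, ms μ (mt dom U (2 ^ j - 1) T)) / A := by
  unfold ent ms
  rw [sum_comm, sum_div]
  refine sum_congr rfl fun c _ => ?_
  rw [← mul_div_assoc, mul_sum]
  congr 1
  refine sum_congr rfl fun j _ => ?_
  split_ifs <;> simp

lemma levels [Nonempty Φ] (tot : ∀ x y, dom x y ∨ dom y x) (q₀ : Q) (A k N : ℕ) {ε : ℝ}
    (hA : 0 < A) (hk : 2 < k * ε) (hN0 : 0 < N)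
    (hN : (Fintype.card (Φ × Finset Φ × Fin k) : ℝ) ≤ ε * N) :
    ∃ ty : (Φ × (Ω → Q) → ℝ) → (Fin A → Ty U q₀ k N), ∀ μ ν : Φ × (Ω → Q) → ℝ,
      (∀ c, 0 ≤ μ c) → ∑ c, μ c ≤ 1 → (∀ c, 0 ≤ ν c) → ∑ c, ν c ≤ 1 → ty μ = ty ν →
      ∀ T, ∑ c, μ c * ent dom U A T c - ∑ c, ν c * ent dom U A T c ≤ 1 / A + 2 * ε := by
  classical
  have hex : ∀ (μ : Φ × (Ω → Q) → ℝ) (j : Fin A), ∃ t : Ty U q₀ k N,
      (∀ c, 0 ≤ μ c) → ∑ c, μ c ≤ 1 → ∀ T,
        ms μ (mt dom U (2 ^ (j : ℕ) - 1) T) - 2 * ε ≤ gf dom (2 ^ (j : ℕ) - 1) t T ∧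
        gf dom (2 ^ (j : ℕ) - 1) t T ≤ ms μ (mt dom U (2 * (2 ^ (j : ℕ) - 1) + 1) T) := by
    intro μ j
    by_cases h : (∀ c, 0 ≤ μ c) ∧ ∑ c, μ c ≤ 1
    · obtain ⟨t, ht⟩ := compress (U := U) tot q₀ (2 ^ (j : ℕ) - 1) k N h.1 h.2 hk hN0 hN
      exact ⟨t, fun _ _ => ht⟩
    · obtain ⟨t, -⟩ := compress (U := U) tot q₀ (2 ^ (j : ℕ) - 1) k N (μ := fun _ => 0)
        (fun _ => le_rfl) (by simp) hk hN0 hN
      exact ⟨t, fun h1 h2 => absurd ⟨h1, h2⟩ h⟩
  choose ty hty using hex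
  refine ⟨ty, fun μ ν h1 h2 h3 h4 h T => ?_⟩
  rw [sum_ent, sum_ent]
  have hA' : (0 : ℝ) < A := by exact_mod_cast hA
  have st : ∀ j ∈ range A, ms μ (mt dom U (2 ^ j - 1) T) ≤
      ms ν (mt dom U (2 ^ (j + 1) - 1) T) + 2 * ε := by
    intro j hj
    have a1 := (hty μ ⟨j, mem_range.1 hj⟩ h1 h2 T).1
    have a2 := (hty ν ⟨j, mem_range.1 hj⟩ h3 h4 T).2
    rw [← h] at a2
    have e : 2 * (2 ^ j - 1) + 1 = 2 ^ (j + 1) - 1 := by
      have : 1 ≤ 2 ^ j := Nat.one_le_two_pow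
      rw [pow_succ]; omega
    simp only [e] at a1 a2
    linarith
  have s1 := sum_le_sum st
  rw [sum_add_distrib, sum_const, card_range, nsmul_eq_mul] at s1
  have s2 := sum_range_succ' (fun j => ms ν (mt dom U (2 ^ j - 1) T)) A
  rw [sum_range_succ] at s2
  have s3 := (ms_le h3 (mt dom U (2 ^ A - 1) T)).trans h4
  have s4 := ms_nonneg h3 (mt dom U (2 ^ 0 - 1) T)
  rw [← sub_div, div_le_iff₀ hA']
  have e : (1 / (A : ℝ) + 2 * ε) * A = 1 + A * (2 * ε) := by field_simp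
  rw [e]
  linarith

omit [Fintype Φ] [Fintype Ω] [Fintype Q] [DecidableEq Ω] in
lemma ent_sep {A : ℕ} (hA : 0 < A) {T T' : Ω → Q} (φ : Φ)
    (h : |ent dom U A T (φ, T') - ent dom U A T' (φ, T')| < 1) :
    ∃ w : Finset Φ, w.card ≤ 2 ^ A ∧ (∀ ψ ∈ w, dom ψ φ) ∧
      ∀ ω, U φ ω → (∀ ψ ∈ w, U ψ ω) → T ω = T' ω := by
  have hA' : (0 : ℝ) < A := by exact_mod_cast hA
  have e1 : ent dom U A T' (φ, T') = 1 := by
    unfold ent
    rw [div_eq_one_iff_eq hA'.ne', sum_congr rfl (g := fun _ => (1 : ℝ))]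
    · simp
    · intro j _
      exact if_pos ⟨∅, by simp, by simp, fun _ _ _ => rfl⟩
  by_contra hcon
  have e2 : ent dom U A T (φ, T') = 0 := by
    unfold ent
    rw [sum_eq_zero, zero_div]
    intro j hj
    refine if_neg ?_
    rintro ⟨w, w1, w2, w3⟩
    refine hcon ⟨w, w1.trans ((Nat.sub_le _ _).trans ?_), w2, w3⟩
    exact Nat.pow_le_pow_right (by norm_num) (mem_range.1 hj).le
  rw [e1, e2] at h
  norm_num at h

end

lemma final_ineq {b : ℝ} (hb : 1 ≤ b) (A k K X P C : ℕ) (hK : 4 * b * (A * k) ≤ K) (hK0 : 0 < K)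
    (hX : 1 ≤ X) (hP : 1 ≤ P) (hC : 1 ≤ C) :
    ∃ q : ℕ, 1 ≤ q ∧ ∀ s m : ℕ, 1 ≤ m → m ≤ ((P * q ^ (X / K)) ^ k * C) ^ A →
      q ^ X ≤ 2 ^ X * q ^ (X / 2) * s → b * Real.log m < Real.log s := by
  set c₀ : ℝ := X * Real.log 2 + b * (A * (k * Real.log P + Real.log C)) with hc₀
  obtain ⟨q, hq⟩ := exists_nat_gt (Real.exp (4 * c₀))
  have hq0 : (0 : ℝ) < q := (Real.exp_pos _).trans hq
  have hq1 : 1 ≤ q := by exact_mod_cast hq0
  have hlq : 4 * c₀ < Real.log q := by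
    rw [Real.lt_log_iff_exp_lt hq0]; exact hq
  have hlq0 : 0 ≤ Real.log q := Real.log_nonneg (by exact_mod_cast hq1)
  refine ⟨q, hq1, fun s m hm1 hm hs => ?_⟩
  have hP' : (0 : ℝ) < P := by exact_mod_cast hP
  have hC' : (0 : ℝ) < C := by exact_mod_cast hC
  have a1 : Real.log m ≤ A * (k * (Real.log P + ((X / K : ℕ) : ℝ) * Real.log q) + Real.log C) := by
    have : (m : ℝ) ≤ (((P : ℝ) * (q : ℝ) ^ (X / K)) ^ k * C) ^ A := by exact_mod_cast hm
    refine (Real.log_le_log (by exact_mod_cast hm1) this).trans (le_of_eq ?_)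
    rw [Real.log_pow, Real.log_mul (by positivity) hC'.ne', Real.log_pow,
      Real.log_mul hP'.ne' (by positivity), Real.log_pow]
  have hs0 : (0 : ℝ) < s := by
    rcases Nat.eq_zero_or_pos s with rfl | h
    · have : 0 < q ^ X := Nat.pow_pos hq1
      omega
    · exact_mod_cast h
  have a2 : X * Real.log q ≤ X * Real.log 2 + ((X / 2 : ℕ) : ℝ) * Real.log q + Real.log s := by
    have : (q : ℝ) ^ X ≤ 2 ^ X * (q : ℝ) ^ (X / 2) * s := by exact_mod_cast hs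
    have := Real.log_le_log (by positivity) this
    rwa [Real.log_pow, Real.log_mul (by positivity) hs0.ne',
      Real.log_mul (by positivity) (by positivity), Real.log_pow, Real.log_pow] at this
  have b1 : ((X / 2 : ℕ) : ℝ) ≤ X / 2 := Nat.cast_div_le
  have b2 : ((X / K : ℕ) : ℝ) ≤ X / K := Nat.cast_div_le
  have hK' : (0 : ℝ) < K := by exact_mod_cast hK0
  have hX' : (1 : ℝ) ≤ X := by exact_mod_cast hX
  have b3 : b * (A * k) * ((X / K : ℕ) : ℝ) ≤ X / 4 := by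
    calc b * (A * k) * ((X / K : ℕ) : ℝ) ≤ (K / 4) * (X / K) :=
          mul_le_mul (by linarith) b2 (by positivity) (by positivity)
      _ = X / 4 := by field_simp
  have c1 : b * Real.log m ≤ b * (A * (k * Real.log P + Real.log C)) + X / 4 * Real.log q := by
    have := mul_le_mul_of_nonneg_left a1 (by linarith : 0 ≤ b)
    have h2 := mul_le_mul_of_nonneg_right b3 hlq0
    refine this.trans ?_
    have e : b * (A * (k * (Real.log P + ((X / K : ℕ) : ℝ) * Real.log q) + Real.log C)) =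
        b * (A * (k * Real.log P + Real.log C)) +
          b * (A * k) * ((X / K : ℕ) : ℝ) * Real.log q := by ring
    rw [e]; linarith
  have c2 := mul_le_mul_of_nonneg_right b1 hlq0
  have c3 := mul_le_mul_of_nonneg_right hX' hlq0
  have e1 : (X : ℝ) / 2 * Real.log q = X * Real.log q / 2 := by ring
  have e2 : (X : ℝ) / 4 * Real.log q = X * Real.log q / 4 := by ring
  rw [e1] at c2
  rw [e2] at c1
  linarith

theorem comb (δ b : ℝ) (hδ : 0 < δ) (hb : 1 ≤ b) :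
    ∃ (n : ℕ) (_ : 1 ≤ n) (R : Type) (_ : Fintype R) (_ : Nonempty R) (f : R → Fin n → ℝ)
      (τ : Type) (_ : Finite τ) (ty : (Fin n → ℝ) → τ),
      (∀ μ ν : Fin n → ℝ, (∀ i, 0 ≤ μ i) → ∑ i, μ i ≤ 1 → (∀ i, 0 ≤ ν i) → ∑ i, ν i ≤ 1 →
        ty μ = ty ν → ∀ T, ∑ i, μ i * f T i - ∑ i, ν i * f T i ≤ δ) ∧
      ∀ (α : Type) (S : Finset α) (cls : R → α), (∀ T, cls T ∈ S) →
        (∀ T T', cls T = cls T' → ∀ i, |f T i - f T' i| < 1) →
        b * Real.log (Nat.card τ) < Real.log S.card := by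
  classical
  obtain ⟨A, hA⟩ := exists_nat_gt (3 / δ)
  have hA' : (0 : ℝ) < A := lt_trans (by positivity) hA
  have hA0 : 0 < A := by exact_mod_cast hA'
  set k : ℕ := 2 * A + 1 with hk
  obtain ⟨K, hK⟩ := exists_nat_gt (4 * b * (A * k))
  have hK0 : 0 < K := by
    have : (0 : ℝ) < K := lt_of_le_of_lt (by positivity) hK
    exact_mod_cast this
  have : NeZero K := ⟨hK0.ne'⟩
  have hKp : (1 : ℝ) ≤ (K : ℝ) ^ (2 ^ A + 1) := one_le_pow₀ (by exact_mod_cast hK0)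
  obtain ⟨t, ht⟩ := exists_pow_lt_of_lt_one (show (0 : ℝ) < 1 / 2 by norm_num)
    (show 1 - 1 / (K : ℝ) ^ (2 ^ A + 1) < 1 by
      have : 0 < 1 / (K : ℝ) ^ (2 ^ A + 1) := by positivity
      linarith)
  obtain ⟨Φ, _, _, dom, tot, refl, hM⟩ := exists_dom (t * (2 ^ A + 1))
  set Ω := Φ → Fin K with hΩ
  set U : Φ → Ω → Prop := fun φ ω => ω φ = 0 with hU
  set X := Fintype.card Ω with hX
  set s₀ := Fintype.card (Φ × Finset Φ × Fin k) with hs₀
  set N := A * s₀ + 1 with hN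
  have hX1 : 1 ≤ X := Fintype.card_pos
  obtain ⟨q, hq1, hq⟩ := final_ineq hb A k K X (Fintype.card Φ) ((N + 1) ^ s₀) hK.le hK0 hX1
    Fintype.card_pos (Nat.one_le_pow _ _ (Nat.succ_pos _))
  have : NeZero q := ⟨by omega⟩
  obtain ⟨ty, hty⟩ := levels (U := U) (Q := Fin q) tot 0 A k N (ε := 1 / A) hA0
    (by rw [hk, mul_one_div, lt_div_iff₀ hA']; push_cast; linarith) (Nat.succ_pos _)
    (by rw [hN, ← hs₀, one_div_mul_eq_div, le_div_iff₀ hA']; push_cast; linarith)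
  let e := Fintype.equivFin (Φ × (Ω → Fin q))
  refine ⟨_, Fintype.card_pos, Ω → Fin q, inferInstance, inferInstance,
    fun T i => ent dom U A T (e.symm i), _, inferInstance, fun μ => ty (fun c => μ (e c)), ?_, ?_⟩
  · intro μ ν h1 h2 h3 h4 h T
    have := hty _ _ (fun c => h1 _) (by rw [Equiv.sum_comp e μ]; exact h2) (fun c => h3 _)
      (by rw [Equiv.sum_comp e ν]; exact h4) h T
    rw [← Equiv.sum_comp e, ← Equiv.sum_comp e]
    simp only [Equiv.symm_apply_apply]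
    refine this.trans ?_
    rw [div_lt_iff₀ hδ] at hA
    have e : 1 / (A : ℝ) + 2 * (1 / A) = 3 / A := by ring
    rw [e, div_le_iff₀ hA']
    linarith
  · intro α S cls hS hc
    have : Nonempty (Fin A → Ty U (0 : Fin q) k N) := ⟨ty 0⟩
    refine hq _ _ Nat.card_pos ?_ ?_
    · rw [Nat.card_fun, Nat.card_eq_fintype_card (α := Fin A), Fintype.card_fin]
      refine Nat.pow_le_pow_left ?_ _
      have := card_Ty (U := U) (0 : Fin q) k N (X / K) (fun ψ => by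
        rw [Nat.le_div_iff_mul_le hK0, Nat.card_eq_fintype_card, Fintype.card_subtype]
        exact card_U_le ψ)
      simpa only [Fintype.card_fin] using this
    · have := card_cls (X / 2) S cls hS (fun T T' h => by
        obtain ⟨Z, B, -, h2, -, h4⟩ := sep_aux (K := K) refl hM
          (univ.filter fun ω => T ω ≠ T' ω) (fun φ => by
            have := hc T T' h (e (φ, T'))
            simp only [Equiv.symm_apply_apply] at this
            obtain ⟨w, w1, w2, w3⟩ := ent_sep hA0 φ this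
            exact ⟨w, w1, w2, fun ω hω h' => (mem_filter.1 hω).2 (w3 ω h'.1 h'.2)⟩) t le_rfl
        rw [Nat.le_div_iff_mul_le (by norm_num)]
        have c1 : ((univ.filter fun ω => T ω ≠ T' ω).card : ℝ) ≤ B.card := by
          exact_mod_cast card_le_card h2
        have c2 := mul_le_mul_of_nonneg_right ht.le (Nat.cast_nonneg (α := ℝ) X)
        have : ((univ.filter fun ω => T ω ≠ T' ω).card : ℝ) * 2 ≤ X := by linarith
        exact_mod_cast this)
      simpa only [Fintype.card_fin] using this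

end Vale.Agent.P126
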