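import Mathlib

namespace Vale.Agent.P126

open Finset

section

variable {Φ Ω Q : Type}
variable (dom : Φ → Φ → Prop) (U : Φ → Ω → Prop)

/-- the row `T` matches the column `c` at level `r` -/
def mt (r : ℕ) (T : Ω → Q) (c : Φ × (Ω → Q)) : Prop :=
  ∃ w : Finset Φ, w.card ≤ r ∧ (∀ ψ ∈ w, dom ψ c.1) ∧
    ∀ ω, U c.1 ω → (∀ ψ ∈ w, U ψ ω) → T ω = c.2 ω

/-- the column `c` is linked to the centre `d` through `w` -/
def lk (r : ℕ) (c d : Φ × (Ω → Q)) (w : Finset Φ) : Prop :=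
  dom d.1 c.1 ∧ w.card ≤ r ∧ (∀ ψ ∈ w, dom ψ c.1) ∧
    ∀ ω, U c.1 ω → (∀ ψ ∈ w, U ψ ω) → U d.1 ω → c.2 ω = d.2 ω

/-- reduced centres -/
def Dt (q₀ : Q) : Type := {d : Φ × (Ω → Q) // ∀ ω, ¬ U d.1 ω → d.2 ω = q₀}

def cov {q₀ : Q} (r : ℕ) (cs : ℕ → Dt U q₀) (i : ℕ) (c : Φ × (Ω → Q)) : Prop :=
  ∃ l < i, ∃ w, lk dom U r c (cs l).1 w

/-- the proxy event -/
def px (r : ℕ) (φ : Φ) (w : Finset Φ) (d : Φ × (Ω → Q)) (T : Ω → Q) : Prop :=
  ∃ w' : Finset Φ, w'.card ≤ r ∧ (∀ ψ ∈ w', dom ψ φ) ∧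
    ∀ ω, U φ ω → (∀ ψ ∈ w, U ψ ω) → U d.1 ω → (∀ ψ ∈ w', U ψ ω) → T ω = d.2 ω

variable {dom U}

lemma px_of_mt {r : ℕ} {T : Ω → Q} {c d : Φ × (Ω → Q)} {w : Finset Φ}
    (h : mt dom U r T c) (hl : lk dom U r c d w) : px dom U r c.1 w d T := by
  obtain ⟨w', h1, h2, h3⟩ := h
  exact ⟨w', h1, h2, fun ω a b e f => (h3 ω a f).trans (hl.2.2.2 ω a b e)⟩

lemma mt_of_px {r : ℕ} {T : Ω → Q} {c d : Φ × (Ω → Q)} {w : Finset Φ}
    (h : px dom U r c.1 w d T) (hl : lk dom U r c d w) : mt dom U (2 * r + 1) T c := by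
  classical
  obtain ⟨w', h1, h2, h3⟩ := h
  obtain ⟨l1, l2, l3, l4⟩ := hl
  refine ⟨insert d.1 (w ∪ w'), ?_, ?_, ?_⟩
  · have := card_insert_le d.1 (w ∪ w')
    have := card_union_le w w'
    omega
  · intro ψ hψ
    rcases mem_insert.1 hψ with rfl | hψ
    · exact l1
    · rcases mem_union.1 hψ with hψ | hψ
      · exact l3 ψ hψ
      · exact h2 ψ hψ
  · intro ω a b
    have e1 : ∀ ψ ∈ w, U ψ ω := fun ψ hψ => b ψ (mem_insert_of_mem (mem_union_left _ hψ))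
    have e2 : ∀ ψ ∈ w', U ψ ω := fun ψ hψ => b ψ (mem_insert_of_mem (mem_union_right _ hψ))
    have e3 : U d.1 ω := b _ (mem_insert_self _ _)
    exact (h3 ω a e1 e3 e2).trans (l4 ω a e1 e3).symm

end

section

variable {C : Type} [Fintype C]

open Classical in
/-- the mass of an event -/
noncomputable def ms (μ : C → ℝ) (P : C → Prop) : ℝ := ∑ c, if P c then μ c else 0

lemma ms_mono {μ : C → ℝ} (hμ : ∀ c, 0 ≤ μ c) {P P' : C → Prop} (h : ∀ c, P c → P' c) :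
    ms μ P ≤ ms μ P' := by
  unfold ms
  refine sum_le_sum fun c _ => ?_
  by_cases h1 : P c
  · simp [h1, h c h1]
  · by_cases h2 : P' c <;> simp [h1, h2, hμ c]

lemma ms_nonneg {μ : C → ℝ} (hμ : ∀ c, 0 ≤ μ c) (P : C → Prop) : 0 ≤ ms μ P := by
  unfold ms
  refine sum_nonneg fun c _ => ?_
  by_cases h1 : P c <;> simp [h1, hμ c]

lemma ms_le {μ : C → ℝ} (hμ : ∀ c, 0 ≤ μ c) (P : C → Prop) : ms μ P ≤ ∑ c, μ c := by
  unfold ms
  refine sum_le_sum fun c _ => ?_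
  by_cases h1 : P c <;> simp [h1, hμ c]

lemma ms_split (μ : C → ℝ) (P P' : C → Prop) :
    ms μ P = ms μ (fun c => P c ∧ P' c) + ms μ (fun c => P c ∧ ¬ P' c) := by
  unfold ms
  rw [← sum_add_distrib]
  refine sum_congr rfl fun c _ => ?_
  by_cases h1 : P c <;> by_cases h2 : P' c <;> simp [h1, h2]

lemma ms_half {Φ : Type} [Nonempty Φ] (dom : Φ → Φ → Prop) (tot : ∀ x y, dom x y ∨ dom y x)
    (p : C → Φ) {μ : C → ℝ} (hμ : ∀ c, 0 ≤ μ c) (B : C → Prop) :
    ∃ ψ, ms μ B / 2 ≤ ms μ (fun c => B c ∧ dom ψ (p c)) := by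
  classical
  by_contra hcon
  push Not at hcon
  have hB : 0 < ms μ B := by
    obtain ⟨ψ⟩ := ‹Nonempty Φ›
    have := hcon ψ
    have := ms_nonneg hμ (fun c => B c ∧ dom ψ (p c))
    linarith
  set ν : C → ℝ := fun c => if B c then μ c else 0 with hν
  have hν0 : ∀ c, 0 ≤ ν c := fun c => by
    simp only [hν]; split_ifs <;> simp [hμ c]
  have hsum : ∑ c, ν c = ms μ B := by
    unfold ms; refine sum_congr rfl fun c _ => ?_
    by_cases h : B c <;> simp [hν, h]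
  have hrow : ∀ ψ, ms μ (fun c => B c ∧ dom ψ (p c)) = ∑ c, ν c * (if dom ψ (p c) then 1 else 0) := by
    intro ψ
    unfold ms; refine sum_congr rfl fun c _ => ?_
    by_cases h : B c <;> by_cases h2 : dom ψ (p c) <;> simp [hν, h, h2]
  set S : ℝ := ∑ c', ∑ c, ν c' * (ν c * (if dom (p c') (p c) then 1 else 0)) with hS
  have h1 : ms μ B ^ 2 ≤ 2 * S := by
    have e : S = ∑ c', ∑ c, ν c' * (ν c * (if dom (p c) (p c') then 1 else 0)) := by
      rw [hS, sum_comm]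
      refine sum_congr rfl fun c _ => sum_congr rfl fun c' _ => by ring
    have e2 : ms μ B ^ 2 = ∑ c', ∑ c, ν c' * ν c := by
      rw [← hsum, sq, sum_mul_sum]
    rw [two_mul]
    nth_rewrite 2 [e]
    rw [hS, e2, ← sum_add_distrib]
    refine sum_le_sum fun c' _ => ?_
    rw [← sum_add_distrib]
    refine sum_le_sum fun c _ => ?_
    have hp := mul_nonneg (hν0 c') (hν0 c)
    rcases tot (p c') (p c) with h | h
    · by_cases h' : dom (p c) (p c') <;> simp [h, h', hp]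
    · by_cases h' : dom (p c') (p c) <;> simp [h, h', hp]
  have h2 : S < ms μ B * (ms μ B / 2) := by
    have e : S = ∑ c', ν c' * ms μ (fun c => B c ∧ dom (p c') (p c)) := by
      rw [hS]; refine sum_congr rfl fun c' _ => ?_
      rw [hrow, mul_sum]
    rw [e, ← hsum, sum_mul]
    have hex : ∃ c, 0 < ν c := by
      by_contra hc
      push Not at hc
      have : ∑ c, ν c ≤ 0 := sum_nonpos fun c _ => hc c
      linarith
    obtain ⟨c₀, hc₀⟩ := hex
    refine sum_lt_sum (fun c _ => ?_) ⟨c₀, mem_univ _, ?_⟩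
    · rw [hsum]; exact mul_le_mul_of_nonneg_left (hcon _).le (hν0 c)
    · rw [hsum]; exact mul_lt_mul_of_pos_left (hcon _) hc₀
  nlinarith

end

section

variable {Φ Ω Q : Type} [Fintype Φ] [Fintype Ω] [Fintype Q] [DecidableEq Ω]
variable {dom : Φ → Φ → Prop} {U : Φ → Ω → Prop}

lemma greedy [Nonempty Φ] (tot : ∀ x y, dom x y ∨ dom y x) (q₀ : Q) (r : ℕ)
    {μ : Φ × (Ω → Q) → ℝ} (hμ : ∀ c, 0 ≤ μ c) {ε : ℝ} (i : ℕ) :
    ∃ cs : ℕ → Dt U q₀,
      (∀ T, ms μ (fun c => mt dom U r T c ∧ ¬ cov dom U r cs i c) ≤ ε) ∨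
        i * ε / 2 ≤ ms μ (cov dom U r cs i) := by
  classical
  induction i with
  | zero =>
    obtain ⟨ψ⟩ := ‹Nonempty Φ›
    refine ⟨fun _ => ⟨(ψ, fun _ => q₀), fun _ _ => rfl⟩, Or.inr ?_⟩
    simpa using ms_nonneg hμ _
  | succ i ih =>
    obtain ⟨cs, h⟩ := ih
    by_cases hT : ∀ T, ms μ (fun c => mt dom U r T c ∧ ¬ cov dom U r cs i c) ≤ ε
    · refine ⟨cs, Or.inl fun T => le_trans (ms_mono hμ fun c hc => ⟨hc.1, ?_⟩) (hT T)⟩
      rintro ⟨l, hl, w, hw⟩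
      exact hc.2 ⟨l, by omega, w, hw⟩
    · have h := h.resolve_left hT
      push Not at hT
      obtain ⟨T, hT⟩ := hT
      obtain ⟨ψ, hψ⟩ := ms_half dom tot Prod.fst hμ
        (fun c => mt dom U r T c ∧ ¬ cov dom U r cs i c)
      let d : Dt U q₀ := ⟨(ψ, fun ω => if U ψ ω then T ω else q₀), fun ω hω => if_neg hω⟩
      refine ⟨Function.update cs i d, Or.inr ?_⟩
      rw [ms_split μ _ (cov dom U r cs i)]
      have a1 : ms μ (cov dom U r cs i) ≤
          ms μ (fun c => cov dom U r (Function.update cs i d) (i + 1) c ∧ cov dom U r cs i c) := by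
        refine ms_mono hμ fun c hc => ⟨?_, hc⟩
        obtain ⟨l, hl, w, hw⟩ := hc
        refine ⟨l, by omega, w, ?_⟩
        rwa [Function.update_of_ne (by omega)]
      have a2 : ms μ (fun c => (mt dom U r T c ∧ ¬ cov dom U r cs i c) ∧ dom ψ c.1) ≤
          ms μ (fun c => cov dom U r (Function.update cs i d) (i + 1) c ∧
            ¬ cov dom U r cs i c) := by
        refine ms_mono hμ fun c hc => ⟨?_, hc.1.2⟩
        obtain ⟨⟨⟨w, w1, w2, w3⟩, -⟩, h3⟩ := hc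
        refine ⟨i, by omega, w, ?_⟩
        rw [Function.update_self]
        refine ⟨h3, w1, w2, fun ω b1 b2 b3 => ?_⟩
        have b3' : U ψ ω := b3
        show c.2 ω = if U ψ ω then T ω else q₀
        rw [if_pos b3', w3 ω b1 b2]
      push_cast
      linarith

/-- the types of one level -/
def Ty (U : Φ → Ω → Prop) (q₀ : Q) (k N : ℕ) : Type :=
  (Fin k → Dt U q₀) × (Φ × Finset Φ × Fin k → Fin (N + 1))

/-- the function coded by a type -/
noncomputable def gf (dom : Φ → Φ → Prop) {q₀ : Q} {k N : ℕ} (r : ℕ) (t : Ty U q₀ k N)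
    (T : Ω → Q) : ℝ :=
  ms (fun σ : Φ × Finset Φ × Fin k => ((t.2 σ : ℕ) : ℝ) / N)
    (fun σ => px dom U r σ.1 σ.2.1 (t.1 σ.2.2).1 T)

lemma compress [Nonempty Φ] (tot : ∀ x y, dom x y ∨ dom y x) (q₀ : Q) (r k N : ℕ)
    {μ : Φ × (Ω → Q) → ℝ} (hμ : ∀ c, 0 ≤ μ c) (hμ1 : ∑ c, μ c ≤ 1) {ε : ℝ}
    (hk : 2 < k * ε) (hN0 : 0 < N)
    (hN : (Fintype.card (Φ × Finset Φ × Fin k) : ℝ) ≤ ε * N) :
    ∃ t : Ty U q₀ k N, ∀ T, ms μ (mt dom U r T) - 2 * ε ≤ gf dom r t T ∧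
      gf dom r t T ≤ ms μ (mt dom U (2 * r + 1) T) := by
  classical
  obtain ⟨cs, h⟩ := greedy (U := U) tot q₀ r hμ (ε := ε) k
  have h : ∀ T, ms μ (fun c => mt dom U r T c ∧ ¬ cov dom U r cs k c) ≤ ε := by
    refine h.resolve_right fun h => ?_
    have := ms_le hμ (cov dom U r cs k)
    linarith
  have hk0 : 0 < k := by
    rcases Nat.eq_zero_or_pos k with rfl | h
    · norm_num at hk
    · exact h
  have hex : ∀ c : Φ × (Ω → Q), ∃ σ : Φ × Finset Φ × Fin k, σ.1 = c.1 ∧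
      (cov dom U r cs k c → lk dom U r c (cs σ.2.2).1 σ.2.1) := by
    intro c
    by_cases hc : cov dom U r cs k c
    · obtain ⟨l, hl, w, hw⟩ := hc
      exact ⟨(c.1, w, ⟨l, hl⟩), rfl, fun _ => hw⟩
    · exact ⟨(c.1, ∅, ⟨0, hk0⟩), rfl, fun h => absurd h hc⟩
  choose s hs1 hs2 using hex
  set m : Φ × Finset Φ × Fin k → ℝ := fun σ => ms μ (fun c => cov dom U r cs k c ∧ s c = σ)
    with hm
  have hm0 : ∀ σ, 0 ≤ m σ := fun σ => ms_nonneg hμ _
  have hm1 : ∀ σ, m σ ≤ 1 := fun σ => (ms_le hμ _).trans hμ1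
  have hNpos : (0 : ℝ) < N := by exact_mod_cast hN0
  have hfl : ∀ σ, ⌊N * m σ⌋₊ < N + 1 := by
    intro σ
    rw [Nat.lt_succ_iff]
    refine Nat.floor_le_of_le ?_
    nlinarith [hm1 σ]
  refine ⟨(fun l => cs l, fun σ => ⟨_, hfl σ⟩), fun T => ?_⟩
  set P : Φ × Finset Φ × Fin k → Prop := fun σ => px dom U r σ.1 σ.2.1 (cs σ.2.2).1 T with hP
  have key : ms m P = ms μ (fun c => cov dom U r cs k c ∧ P (s c)) := by
    unfold ms
    have e : ∀ σ, (if P σ then m σ else 0) =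
        ∑ c, if s c = σ then (if cov dom U r cs k c ∧ P (s c) then μ c else 0) else 0 := by
      intro σ
      by_cases hσ : P σ
      · rw [if_pos hσ, hm]
        unfold ms
        refine sum_congr rfl fun c _ => ?_
        by_cases h1 : s c = σ
        · by_cases h2 : cov dom U r cs k c <;> simp [h1, h2, hσ]
        · simp [h1]
      · rw [if_neg hσ]
        refine (sum_eq_zero fun c _ => ?_).symm
        by_cases h1 : s c = σ
        · simp [h1, hσ]
        · simp [h1]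
    refine (sum_congr rfl fun σ _ => e σ).trans ?_
    rw [sum_comm]
    refine sum_congr rfl fun c _ => ?_
    rw [sum_ite_eq]
    by_cases h2 : cov dom U r cs k c ∧ P (s c) <;> simp [h2]
  have up : gf dom r (U := U) (q₀ := q₀) (k := k) (N := N)
      (fun l => cs l, fun σ => ⟨_, hfl σ⟩) T ≤ ms m P := by
    unfold gf ms
    refine sum_le_sum fun σ _ => ?_
    by_cases hσ : P σ
    · rw [if_pos hσ, if_pos hσ, div_le_iff₀ hNpos]
      have := Nat.floor_le (mul_nonneg hNpos.le (hm0 σ))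
      simpa [mul_comm] using this
    · rw [if_neg hσ, if_neg hσ]
  have lo : ms m P - ε ≤ gf dom r (U := U) (q₀ := q₀) (k := k) (N := N)
      (fun l => cs l, fun σ => ⟨_, hfl σ⟩) T := by
    have e : ε ≥ ∑ _σ : Φ × Finset Φ × Fin k, (1 : ℝ) / N := by
      rw [sum_const, card_univ, nsmul_eq_mul, mul_one_div, ge_iff_le, div_le_iff₀ hNpos]
      exact hN
    have : ms m P - ∑ _σ : Φ × Finset Φ × Fin k, (1 : ℝ) / N ≤
        gf dom r (U := U) (q₀ := q₀) (k := k) (N := N)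
          (fun l => cs l, fun σ => ⟨_, hfl σ⟩) T := by
      unfold gf ms
      rw [← sum_sub_distrib]
      refine sum_le_sum fun σ _ => ?_
      by_cases hσ : P σ
      · rw [if_pos hσ, if_pos hσ, le_div_iff₀ hNpos]
        have := Nat.lt_floor_add_one (N * m σ)
        have e : (m σ - 1 / N) * N = N * m σ - 1 := by field_simp
        rw [e]
        show _ ≤ ((⌊N * m σ⌋₊ : ℕ) : ℝ)
        linarith
      · rw [if_neg hσ, if_neg hσ]
        have : (0 : ℝ) ≤ 1 / N := by positivity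
        linarith
    linarith
  constructor
  · rw [ms_split μ _ (cov dom U r cs k)]
    have a1 : ms μ (fun c => mt dom U r T c ∧ cov dom U r cs k c) ≤
        ms μ (fun c => cov dom U r cs k c ∧ P (s c)) := by
      refine ms_mono hμ fun c hc => ⟨hc.2, ?_⟩
      have := px_of_mt hc.1 (hs2 c hc.2)
      rw [← hs1 c] at this
      exact this
    have := h T
    linarith
  · refine up.trans (key.le.trans (ms_mono hμ fun c hc => ?_))
    refine mt_of_px ?_ (hs2 c hc.1)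
    have := hc.2
    rw [← hs1 c]
    exact this

end

end Vale.Agent.P126
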