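import Mathlib

namespace Vale.Agent.P126

open scoped Pointwise

/-- An origin-symmetric convex body: compact, convex, nonempty interior, `K = -K`. -/
def IsSymmBody {n : ℕ} (K : Set (EuclideanSpace ℝ (Fin n))) : Prop :=
  IsCompact K ∧ Convex ℝ K ∧ (interior K).Nonempty ∧ K = -K

/-- The polar body. -/
def polar {n : ℕ} (K : Set (EuclideanSpace ℝ (Fin n))) : Set (EuclideanSpace ℝ (Fin n)) :=
  {y | ∀ x ∈ K, inner ℝ x y ≤ (1 : ℝ)}

/-- The sizes of the finite families of translates `x + B` whose union contains `A`. -/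
def coverSizes {n : ℕ} (A B : Set (EuclideanSpace ℝ (Fin n))) : Set ℕ :=
  {k | ∃ S : Finset (EuclideanSpace ℝ (Fin n)), S.card = k ∧
    A ⊆ ⋃ x ∈ S, (fun y => x + y) '' B}

/-- The covering number `N(A, B)`. -/
noncomputable def coveringNumber {n : ℕ} (A B : Set (EuclideanSpace ℝ (Fin n))) : ℕ :=
  sInf (coverSizes A B)

end Vale.Agent.P126
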