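import Vale.Agent.P126.Comb
import Vale.Agent.P126.Defs

namespace Vale.Agent.P126

open Finset Metric
open scoped Pointwise

variable {n : ℕ}

lemma norm_le_sum (y : EuclideanSpace ℝ (Fin n)) : ‖y‖ ≤ ∑ i, |y i| := by
  rw [EuclideanSpace.norm_eq, Real.sqrt_le_iff]
  refine ⟨sum_nonneg fun i _ => abs_nonneg _, ?_⟩
  simp only [Real.norm_eq_abs]
  exact sum_sq_le_sq_sum_of_nonneg fun i _ => abs_nonneg _

lemma inner_eq (x y : EuclideanSpace ℝ (Fin n)) : inner ℝ x y = ∑ i, y i * x i := by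
  simp [PiLp.inner_apply]

lemma body_of {K : Set (EuclideanSpace ℝ (Fin n))} (h1 : IsClosed K) (h2 : Convex ℝ K)
    (h3 : ∀ x ∈ K, -x ∈ K) {ρ ρ' : ℝ} (hρ : 0 < ρ) (h4 : ball 0 ρ ⊆ K)
    (h5 : K ⊆ closedBall 0 ρ') : IsSymmBody K := by
  refine ⟨(isCompact_closedBall 0 ρ').of_isClosed_subset h1 h5, h2,
    ⟨0, interior_maximal h4 isOpen_ball (mem_ball_self hρ)⟩, ?_⟩
  ext x
  rw [Set.mem_neg]
  exact ⟨h3 x, fun h => by simpa using h3 _ h⟩

lemma polar_body {P : Set (EuclideanSpace ℝ (Fin n))} (h3 : ∀ x ∈ P, -x ∈ P) {ρ ρ' : ℝ}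
    (hρ : 0 < ρ) (hρ' : 0 < ρ') (h4 : closedBall 0 ρ ⊆ P) (h5 : P ⊆ closedBall 0 ρ') :
    IsSymmBody (polar P) := by
  refine body_of ?_ ?_ ?_ (ρ := 1 / ρ') (ρ' := 1 / ρ) (by positivity) ?_ ?_
  · have : polar P = ⋂ x ∈ P, {y | inner ℝ x y ≤ (1 : ℝ)} := by
      ext y; simp [polar]
    rw [this]
    exact isClosed_biInter fun x _ => isClosed_le (by fun_prop) continuous_const
  · intro y hy z hz s t hs ht hst x hx
    rw [inner_add_right, real_inner_smul_right, real_inner_smul_right]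
    have a1 := mul_le_mul_of_nonneg_left (hy x hx) hs
    have a2 := mul_le_mul_of_nonneg_left (hz x hx) ht
    linarith
  · intro y hy x hx
    have := hy _ (h3 x hx)
    rwa [inner_neg_left, ← inner_neg_right] at this
  · intro y hy x hx
    have a1 := mem_closedBall_zero_iff.1 (h5 hx)
    have a2 := (mem_ball_zero_iff.1 hy).le
    refine (real_inner_le_norm x y).trans ?_
    calc ‖x‖ * ‖y‖ ≤ ρ' * (1 / ρ') := mul_le_mul a1 a2 (norm_nonneg _) hρ'.le
      _ = 1 := by field_simp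
  · intro y hy
    rw [mem_closedBall_zero_iff]
    rcases eq_or_ne y 0 with rfl | h0
    · simp [hρ.le]
    have hn : 0 < ‖y‖ := norm_pos_iff.2 h0
    have := hy ((ρ / ‖y‖) • y) (h4 (by
      rw [mem_closedBall_zero_iff, norm_smul, Real.norm_eq_abs, abs_of_pos (by positivity)]
      exact le_of_eq (by field_simp)))
    rw [real_inner_smul_left, real_inner_self_eq_norm_sq] at this
    rw [le_div_iff₀ hρ]
    refine le_trans (le_of_eq ?_) this
    field_simp

/-- the cube of side two thirds -/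
def cube (n : ℕ) : Set (EuclideanSpace ℝ (Fin n)) := {x | ∀ i, |x i| ≤ 1 / 3}

lemma ball_subset_cube : ball (0 : EuclideanSpace ℝ (Fin n)) (1 / 3) ⊆ cube n := by
  intro x hx i
  have := PiLp.norm_apply_le x i
  rw [Real.norm_eq_abs] at this
  exact this.trans (mem_ball_zero_iff.1 hx).le

lemma cube_body : IsSymmBody (cube n) := by
  refine body_of ?_ ?_ ?_ (ρ' := n / 3) (by norm_num) ball_subset_cube ?_
  · have : cube n = ⋂ i, {x | |x i| ≤ 1 / 3} := by
      ext y; simp [cube]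
    rw [this]
    exact isClosed_iInter fun i => isClosed_le (by fun_prop) continuous_const
  · intro y hy z hz s t hs ht hst i
    have a1 := abs_le.1 (hy i)
    have a2 := abs_le.1 (hz i)
    simp only [PiLp.add_apply, PiLp.smul_apply, smul_eq_mul]
    rw [abs_le]
    constructor <;> nlinarith
  · intro y hy i
    simpa using hy i
  · intro y hy
    rw [mem_closedBall_zero_iff]
    refine (norm_le_sum y).trans ((sum_le_card_nsmul _ _ _ fun i _ => hy i).trans ?_)
    simp [div_eq_mul_inv]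

lemma sum_le_of_polar_cube {y : EuclideanSpace ℝ (Fin n)} (hy : y ∈ polar (cube n)) :
    ∑ i, |y i| ≤ 3 := by
  have := hy (WithLp.toLp 2 fun i => if 0 ≤ y i then 1 / 3 else - (1 / 3)) (fun i => by
    show |if 0 ≤ y i then (1 / 3 : ℝ) else - (1 / 3)| ≤ 1 / 3
    split_ifs <;> simp)
  rw [inner_eq] at this
  have e : ∑ i, |y i| = 3 * ∑ i, y i * (if 0 ≤ y i then (1 / 3 : ℝ) else - (1 / 3)) := by
    rw [mul_sum]
    refine sum_congr rfl fun i _ => ?_
    split_ifs with h
    · rw [abs_of_nonneg h]; ring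
    · rw [abs_of_neg (not_le.1 h)]; ring
  rw [e]
  linarith

lemma coverSizes_nonempty {K L : Set (EuclideanSpace ℝ (Fin n))} (hK : IsCompact K) {ρ : ℝ}
    (hρ : 0 < ρ) (hL : ball 0 ρ ⊆ L) : (coverSizes K L).Nonempty := by
  obtain ⟨t, -, ht, h⟩ := finite_cover_balls_of_compact hK hρ
  refine ⟨_, ht.toFinset, rfl, fun x hx => ?_⟩
  obtain ⟨z, hz, hxz⟩ := Set.mem_iUnion₂.1 (h hx)
  refine Set.mem_iUnion₂.2 ⟨z, ht.mem_toFinset.2 hz, x - z, hL ?_, by simp⟩
  rwa [mem_ball_zero_iff, ← dist_eq_norm]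

theorem counterexample (a b : ℝ) (ha : 1 ≤ a) (hb : 1 ≤ b) :
    ∃ n : ℕ, 1 ≤ n ∧ ∃ K L : Set (EuclideanSpace ℝ (Fin n)), IsSymmBody K ∧ IsSymmBody L ∧
      (coverSizes K L).Nonempty ∧ (coverSizes (polar L) (a⁻¹ • polar K)).Nonempty ∧
      b * Real.log (coveringNumber (polar L) (a⁻¹ • polar K)) <
        Real.log (coveringNumber K L) := by
  classical
  have ha0 : 0 < a := by linarith
  obtain ⟨n, hn, R, _, _, f, τ, _, ty, h1, h2⟩ :=
    comb (1 / (6 * a)) (2 * b) (by positivity) (by linarith)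
  let v : R → EuclideanSpace ℝ (Fin n) := fun T => WithLp.toLp 2 (f T)
  let P : Set (EuclideanSpace ℝ (Fin n)) := {y | (∀ T, |inner ℝ y (v T)| ≤ 1) ∧ ‖y‖ ≤ 6 * a}
  set s : ℝ := 1 + ∑ T, ‖v T‖ with hs
  have hs1 : 1 ≤ s := le_add_of_nonneg_right (sum_nonneg fun T _ => norm_nonneg _)
  have hK : IsSymmBody (polar P) := by
    refine polar_body (ρ := 1 / s) (ρ' := 6 * a) ?_ (by positivity) (by positivity) ?_ ?_
    · intro x hx
      exact ⟨fun T => by rw [inner_neg_left, abs_neg]; exact hx.1 T, by simpa using hx.2⟩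
    · intro x hx
      rw [mem_closedBall_zero_iff] at hx
      refine ⟨fun T => (abs_real_inner_le_norm _ _).trans ?_, hx.trans ?_⟩
      · have : ‖v T‖ ≤ s := by
          have := single_le_sum (f := fun T => ‖v T‖) (fun T _ => norm_nonneg _) (mem_univ T)
          linarith
        calc ‖x‖ * ‖v T‖ ≤ 1 / s * s := mul_le_mul hx this (norm_nonneg _) (by positivity)
          _ = 1 := by field_simp
      · have : 1 / s ≤ 1 := by rw [div_le_one (by positivity)]; exact hs1
        linarith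
    · intro x hx
      exact mem_closedBall_zero_iff.2 hx.2
  have hne := coverSizes_nonempty hK.1 (by norm_num) (ball_subset_cube (n := n))
  let pp : EuclideanSpace ℝ (Fin n) → Fin n → ℝ := fun y i => max (y i) 0 / 3
  let pm : EuclideanSpace ℝ (Fin n) → Fin n → ℝ := fun y i => max (-y i) 0 / 3
  have hpp0 : ∀ y i, 0 ≤ pp y i := fun y i => div_nonneg (le_max_right _ _) (by norm_num)
  have hpm0 : ∀ y i, 0 ≤ pm y i := fun y i => div_nonneg (le_max_right _ _) (by norm_num)
  have hpp1 : ∀ y ∈ polar (cube n), ∑ i, pp y i ≤ 1 := by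
    intro y hy
    have := sum_le_of_polar_cube hy
    have h : ∑ i, pp y i ≤ ∑ i, |y i| / 3 := sum_le_sum fun i _ =>
      div_le_div_of_nonneg_right (max_le (le_abs_self _) (abs_nonneg _)) (by norm_num)
    have e : ∑ i, |y i| / 3 = (∑ i, |y i|) / 3 := (sum_div _ _ _).symm
    linarith
  have hpm1 : ∀ y ∈ polar (cube n), ∑ i, pm y i ≤ 1 := by
    intro y hy
    have := sum_le_of_polar_cube hy
    have h : ∑ i, pm y i ≤ ∑ i, |y i| / 3 := sum_le_sum fun i _ =>
      div_le_div_of_nonneg_right (max_le (neg_le_abs _) (abs_nonneg _)) (by norm_num)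
    have e : ∑ i, |y i| / 3 = (∑ i, |y i|) / 3 := (sum_div _ _ _).symm
    linarith
  have hin : ∀ T y, inner ℝ (v T) y =
      3 * (∑ i, pp y i * f T i - ∑ i, pm y i * f T i) := by
    intro T y
    rw [inner_eq, ← sum_sub_distrib, mul_sum]
    refine sum_congr rfl fun i _ => ?_
    show y i * f T i = 3 * (max (y i) 0 / 3 * f T i - max (-y i) 0 / 3 * f T i)
    rcases le_total 0 (y i) with h | h
    · rw [max_eq_left h, max_eq_right (by linarith)]; ring
    · rw [max_eq_right h, max_eq_left (by linarith)]; ring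
  have hex : ∀ p : τ × τ, ∃ z : EuclideanSpace ℝ (Fin n), ∀ y ∈ polar (cube n),
      (ty (pp y), ty (pm y)) = p → z ∈ polar (cube n) ∧ (ty (pp z), ty (pm z)) = p := by
    intro p
    by_cases h : ∃ y ∈ polar (cube n), (ty (pp y), ty (pm y)) = p
    · obtain ⟨y, hy⟩ := h
      exact ⟨y, fun _ _ _ => hy⟩
    · exact ⟨0, fun y hy hp => absurd ⟨y, hy, hp⟩ h⟩
  choose c hc using hex
  have := Fintype.ofFinite τ
  have hcov : (univ.image c).card ∈ coverSizes (polar (cube n)) (a⁻¹ • polar (polar P)) := by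
    refine ⟨_, rfl, fun y hy => ?_⟩
    obtain ⟨hz, hty⟩ := hc _ y hy rfl
    set z := c (ty (pp y), ty (pm y)) with hzdef
    refine Set.mem_iUnion₂.2 ⟨z, mem_image_of_mem _ (mem_univ _), y - z, ?_, by simp⟩
    refine ⟨a • (y - z), fun x hx => ?_, by simp [smul_smul, ha0.ne']⟩
    rw [real_inner_comm]
    refine hx _ ⟨fun T => ?_, ?_⟩
    · obtain ⟨t1, t2⟩ := Prod.mk.inj hty
      have b1 := h1 _ _ (hpp0 z) (hpp1 z hz) (hpp0 y) (hpp1 y hy) t1 T
      have b2 := h1 _ _ (hpp0 y) (hpp1 y hy) (hpp0 z) (hpp1 z hz) t1.symm T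
      have b3 := h1 _ _ (hpm0 z) (hpm1 z hz) (hpm0 y) (hpm1 y hy) t2 T
      have b4 := h1 _ _ (hpm0 y) (hpm1 y hy) (hpm0 z) (hpm1 z hz) t2.symm T
      rw [real_inner_comm, real_inner_smul_right, inner_sub_right, hin, hin, abs_mul,
        abs_of_pos ha0]
      have b5 : |3 * (∑ i, pp y i * f T i - ∑ i, pm y i * f T i) -
          3 * (∑ i, pp z i * f T i - ∑ i, pm z i * f T i)| ≤ 6 * (1 / (6 * a)) := by
        rw [abs_le]; constructor <;> linarith
      calc _ ≤ a * (6 * (1 / (6 * a))) := mul_le_mul_of_nonneg_left b5 ha0.le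
        _ = 1 := by field_simp
    · rw [norm_smul, Real.norm_eq_abs, abs_of_pos ha0, mul_comm]
      refine mul_le_mul_of_nonneg_right ((norm_sub_le _ _).trans ?_) ha0.le
      have b1 := (norm_le_sum y).trans (sum_le_of_polar_cube hy)
      have b2 := (norm_le_sum z).trans (sum_le_of_polar_cube hz)
      linarith
  refine ⟨n, hn, polar P, cube n, hK, cube_body, hne, ⟨_, hcov⟩, ?_⟩
  obtain ⟨S, hS, hS2⟩ := Nat.sInf_mem hne
  have hv : ∀ T, ∃ x ∈ S, v T - x ∈ cube n := by
    intro T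
    have : v T ∈ polar P := fun y hy => (le_abs_self _).trans (hy.1 T)
    obtain ⟨x, hx, w, hw, e⟩ := Set.mem_iUnion₂.1 (hS2 this)
    refine ⟨x, hx, ?_⟩
    rw [← e]
    simpa using hw
  choose cls hcls1 hcls2 using hv
  have main := h2 _ S cls hcls1 (fun T T' h i => by
    have b1 := abs_le.1 (hcls2 T i)
    have b2 := abs_le.1 (hcls2 T' i)
    rw [← h] at b2
    have e1 : (v T - cls T) i = f T i - cls T i := rfl
    have e2 : (v T' - cls T) i = f T' i - cls T i := rfl
    rw [e1] at b1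
    rw [e2] at b2
    rw [abs_lt]
    constructor <;> linarith)
  rw [hS] at main
  refine lt_of_le_of_lt ?_ main
  have hle : coveringNumber (polar (cube n)) (a⁻¹ • polar (polar P)) ≤ Nat.card τ ^ 2 := by
    refine (Nat.sInf_le hcov).trans (card_image_le.trans ?_)
    simp [sq]
  have hlog : Real.log (coveringNumber (polar (cube n)) (a⁻¹ • polar (polar P))) ≤
      2 * Real.log (Nat.card τ) := by
    rcases Nat.eq_zero_or_pos (coveringNumber (polar (cube n)) (a⁻¹ • polar (polar P))) with h | h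
    · rw [h]
      have := Real.log_natCast_nonneg (Nat.card τ)
      simp only [Nat.cast_zero, Real.log_zero]
      linarith
    · have h' : ((coveringNumber (polar (cube n)) (a⁻¹ • polar (polar P)) : ℕ) : ℝ) ≤
          ((Nat.card τ : ℕ) : ℝ) ^ 2 := by exact_mod_cast hle
      have := Real.log_le_log (by exact_mod_cast h) h'
      rwa [Real.log_pow, Nat.cast_ofNat] at this
  have := mul_le_mul_of_nonneg_left hlog (by linarith : 0 ≤ b)
  linarith

end Vale.Agent.P126
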